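import Vale.Agent.P198.O.Main
import Vale.Agent.P198.A.Main
import Vale.Agent.P198.R.Main
import Vale.Agent.P198.D.Main
import Vale.Agent.P198.P.Main
import Vale.Agent.P198.H.Main
import Vale.Agent.P198.C.Main
import Vale.Agent.P198.K.Main
import Vale.Agent.P198.I.Main

namespace Vale.Agent.Results.P198.Cannon
open Vale.Agent.P198

theorem result (G : Type) [Group G] (S : Finset G) (hS : Subgroup.closure (S : Set G) = ⊤)
    (δ : ℕ) (hδ : ThinTriangles (SimpleGraph.mulCayley (S : Set G)) δ)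
    (hb : Nonempty (Boundary (SimpleGraph.mulCayley (S : Set G)) 1 ≃ₜ
      Metric.sphere (0 : EuclideanSpace ℝ (Fin 3)) 1)) :
    ∃ ρ : G →* Equiv.Perm H3, Geometric ρ := by
  obtain ⟨Z, _, _, _, _, ⟨X⟩⟩ := exists_gp S hS δ hδ hb
  borelize Z
  obtain ⟨R, hR⟩ := X.ro X.bm
  obtain ⟨D⟩ := X.df hR
  obtain ⟨O, u, v, h⟩ := D.exists_hp X
  obtain ⟨O', u', v', h'⟩ := DF.exists_hm X h
  obtain ⟨V, hV⟩ := DF.exists_chart X h'
  obtain ⟨η, κ, hκ⟩ := X.exists_mob hV
  exact X.geometric hκ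

end Vale.Agent.Results.P198.Cannon
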